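import Vale.Agent.P032.Words6.H46.Enc

/-!
# P032: the encoded palettes and the words below them
-/

namespace Vale.Agent.P032.Words6.H378

open Vale.Agent.P032.Words.Trie Vale.Agent.P032.Words6.H46

variable {D : Dat} {f : Fin 6 → ℕ} {M : Fin 6 → Fin 6 → Prop}
  {A : (Fin 6 → Set (Fin 6)) → Prop} {Λ : Fin 6 → Set (Fin 6)} {h : Fin 6 → Set (Fin 6)}

theorem leg_card (hh : Leg M h) (k : Fin 6) : (h k).ncard = 2 := by
  obtain ⟨a, b, hab, -, hk⟩ := hh.pair k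
  rw [hk, Set.ncard_pair hab]

theorem pair_eq (S : Sys M A Λ) {k : Fin 6} (h2 : (Λ k).ncard = 2) (hA : A h) : h k = Λ k :=
  Set.eq_of_subset_of_ncard_le (S.sub h hA k) (by rw [h2, leg_card (S.leg h hA)]) (Set.toFinite _)

theorem exists_A (S : Sys M A Λ) : ∃ h, A h := by
  have h1 : (Λ 0).Nonempty := by
    rw [← Set.ncard_pos (Set.toFinite _)]
    rcases S.card 0 with h | h <;> omega
  obtain ⟨i, hi⟩ := h1
  obtain ⟨h, hA, -⟩ := S.span 0 i hi
  exact ⟨h, hA⟩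

theorem code_pal (E : Enc D f M) (S : Sys M A Λ) {k : Fin 6} (h2 : (Λ k).ncard = 2) :
    code f (Λ k) ∈ D.L := by
  obtain ⟨h, hA⟩ := exists_A S
  rw [← pair_eq S h2 hA]
  exact letter_mem E (S.leg h hA)

theorem idxPL (O : OkS D) {c : ℕ} (hc : c ∈ D.L) : c ∈ D.P ∧ D.P.idxOf c = D.L.idxOf c := by
  obtain ⟨h1, h2⟩ := idx_spec hc
  rw [O.lenL] at h1
  have h3 := O.pl _ h1
  rw [h2] at h3
  have h4 : D.L.idxOf c < D.P.length := by rw [O.lenP]; exact lt_of_lt_of_le h1 O.le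
  have hm : c ∈ D.P := by
    rw [List.getD_eq_getElem _ _ h4] at h3
    rw [← h3]
    exact List.getElem_mem h4
  refine ⟨hm, ?_⟩
  by_contra hne
  obtain ⟨k1, k2⟩ := idx_spec hm
  rw [O.lenP] at k1
  exact (O.ne _ k1 _ (lt_of_lt_of_le h1 O.le) hne).1 (k2.trans h3.symm)

theorem pal_mem (O : OkS D) (E : Enc D f M) (S : Sys M A Λ) (Hm : Md D f Λ) (k : Fin 6) :
    code f (Λ k) ∈ D.P := by
  rcases S.card k with h | h
  · exact (idxPL O (code_pal E S h)).1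
  · exact Hm.mem k h

/-- the index of a palette -/
theorem td_spec (O : OkS D) (E : Enc D f M) (S : Sys M A Λ) (Hm : Md D f Λ) (k : ℕ) :
    td D f Λ k < D.N ∧ D.P.getD (td D f Λ k) 0 = code f (Λ (Fin.ofNat 6 k)) ∧
      (td D f Λ k < D.A ↔ (Λ (Fin.ofNat 6 k)).ncard = 2) := by
  obtain ⟨h1, h2⟩ := idx_spec (pal_mem O E S Hm (Fin.ofNat 6 k))
  rw [O.lenP] at h1
  refine ⟨h1, h2, fun h3 => ?_, fun h3 => ?_⟩
  · have h4 := O.pl _ h3
    obtain ⟨i, hi, j, hj, hij, h5⟩ := O.two _ h3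
    have h2' : D.P.getD (td D f Λ k) 0 = code f (Λ (Fin.ofNat 6 k)) := h2
    rw [h5, h2'] at h4
    obtain ⟨a, rfl⟩ := ex_f E.inj E.lt hi
    obtain ⟨b, rfl⟩ := ex_f E.inj E.lt hj
    rw [← code_pair E.inj E.lt] at h4
    rw [code_inj E.inj E.lt h4, Set.ncard_pair (fun h => by rw [h] at hij; omega)]
  · have h4 := code_pal E S h3
    have h5 : td D f Λ k = D.L.idxOf (code f (Λ (Fin.ofNat 6 k))) := (idxPL O h4).2
    rw [h5, ← O.lenL]
    exact (idx_spec h4).1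

theorem inter_of_add (E : Enc D f M) {P Q R : Set (Fin 6)} (hR : R ⊆ P)
    (h : code f R + code f (P ∩ Q) = code f P) : P ∩ Q = P \ R := by
  have h1 := code_add E.inj E.lt hR
  exact code_inj E.inj E.lt (by omega)

theorem flt_of (O : OkS D) (E : Enc D f M) (S : Sys M A Λ) (Hm : Md D f Λ) (hA : A h) {k j : ℕ}
    (hkj : (Fin.ofNat 6 j : Fin 6) = Fin.ofNat 6 k + 3) :
    flt D (td D f Λ k) (td D f Λ j) (wd D f h k) (wd D f h j) = true := by
  obtain ⟨a1, a2, a3⟩ := td_spec O E S Hm k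
  obtain ⟨b1, b2, b3⟩ := td_spec O E S Hm j
  obtain ⟨c1, c2⟩ := wd_spec O E (S.leg h hA) k
  obtain ⟨d1, d2⟩ := wd_spec O E (S.leg h hA) j
  unfold flt
  rw [a2, b2, c2, d2, code_and E.inj E.lt, hkj]
  cases h1 : Nat.ble D.A (td D f Λ k)
  · rfl
  cases h2 : Nat.ble D.A (td D f Λ j)
  · rfl
  rw [cond_true, cond_true]
  cases h3 : Nat.beq (code f (Λ (Fin.ofNat 6 k) ∩ Λ (Fin.ofNat 6 k + 3))) 0
  · rw [cond_false]
    cases h4 : Nat.beq (Nat.add (code f (h (Fin.ofNat 6 k)))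
      (code f (Λ (Fin.ofNat 6 k) ∩ Λ (Fin.ofNat 6 k + 3)))) (code f (Λ (Fin.ofNat 6 k)))
    · rfl
    rw [cond_true]
    cases h5 : Nat.beq (Nat.add (code f (h (Fin.ofNat 6 k + 3)))
      (code f (Λ (Fin.ofNat 6 k) ∩ Λ (Fin.ofNat 6 k + 3)))) (code f (Λ (Fin.ofNat 6 k + 3)))
    · rfl
    exfalso
    rw [hkj] at b3
    generalize (Fin.ofNat 6 k : Fin 6) = K at *
    have e1 := inter_of_add E (S.sub h hA K) (Nat.eq_of_beq_eq_true h4)
    have e2 := inter_of_add E (Q := Λ K) (S.sub h hA (K + 3)) (by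
      have := Nat.eq_of_beq_eq_true h5
      rwa [Set.inter_comm] at this)
    have g1 : (Λ K).ncard = 3 := by
      rcases S.card K with h6 | h6
      · have h7 := a3.2 h6
        have h8 := Nat.le_of_ble_eq_true h1
        omega
      · exact h6
    have g2 : (Λ (K + 3)).ncard = 3 := by
      rcases S.card (K + 3) with h6 | h6
      · have h7 := b3.2 h6
        have h8 := Nat.le_of_ble_eq_true h2
        omega
      · exact h6
    have g3 : (Λ K ∩ Λ (K + 3)).ncard = 1 := by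
      rw [e1, Set.ncard_sdiff (S.sub h hA K) (Set.toFinite _), g1, leg_card (S.leg h hA)]
    obtain ⟨s, hs⟩ := Set.ncard_eq_one.1 g3
    refine S.g33 K s g1 g2 hs h hA ⟨?_, ?_⟩
    · rw [← hs, e1]
      exact (Set.sdiff_sdiff_cancel_left (S.sub h hA K)).symm
    · rw [← hs, Set.inter_comm, e2]
      exact (Set.sdiff_sdiff_cancel_left (S.sub h hA (K + 3))).symm
  · rfl

/-- words below the palettes -/
theorem enc_blw (ok : okD D = true) (E : Enc D f M) (S : Sys M A Λ) (Hm : Md D f Λ) (hA : A h) :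
    Blw D (td D f Λ) (wd D f h) := by
  have O := okS ok
  refine ⟨fun k _ => ?_, flt_of O E S Hm hA rfl, flt_of O E S Hm hA rfl, flt_of O E S Hm hA rfl⟩
  obtain ⟨a1, a2, a3⟩ := td_spec O E S Hm k
  obtain ⟨c1, c2⟩ := wd_spec O E (S.leg h hA) k
  refine O.PL _ a1 _ c1 ?_
  rw [a2, c2, code_and E.inj E.lt, Set.inter_eq_left.2 (S.sub h hA _)]

end Vale.Agent.P032.Words6.H378
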