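import Vale.Agent.P032.Words6.H378.EncBlw

/-!
# P032: the encoded palettes are an allowed tuple
-/

namespace Vale.Agent.P032.Words6.H378

open Vale.Agent.P032.Words.Trie Vale.Agent.P032.Words6.H46

variable {D : Dat} {f : Fin 6 → ℕ} {M : Fin 6 → Fin 6 → Prop}
  {A : (Fin 6 → Set (Fin 6)) → Prop} {Λ : Fin 6 → Set (Fin 6)} {h : Fin 6 → Set (Fin 6)}

theorem td_inj (O : OkS D) (E : Enc D f M) (S : Sys M A Λ) (Hm : Md D f Λ) {k j : ℕ}
    (he : td D f Λ k = td D f Λ j) : Λ (Fin.ofNat 6 k) = Λ (Fin.ofNat 6 j) := by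
  obtain ⟨-, a2, -⟩ := td_spec O E S Hm k
  obtain ⟨-, b2, -⟩ := td_spec O E S Hm j
  rw [he, b2] at a2
  exact (code_inj E.inj E.lt a2).symm

theorem card3 (O : OkS D) (E : Enc D f M) (S : Sys M A Λ) (Hm : Md D f Λ) {k : ℕ}
    (hk : D.A ≤ td D f Λ k) : (Λ (Fin.ofNat 6 k)).ncard = 3 := by
  obtain ⟨-, -, a3⟩ := td_spec O E S Hm k
  rcases S.card (Fin.ofNat 6 k) with h | h
  · have := a3.2 h
    omega
  · exact h

theorem nbT_of (O : OkS D) (E : Enc D f M) (S : Sys M A Λ) (Hm : Md D f Λ) {k j : ℕ}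
    (hkj : (Fin.ofNat 6 j : Fin 6) = Fin.ofNat 6 k + 1) :
    rel D.nbT (td D f Λ k) (td D f Λ j) := by
  obtain ⟨a1, a2, a3⟩ := td_spec O E S Hm k
  obtain ⟨b1, b2, b3⟩ := td_spec O E S Hm j
  rcases O.nbT _ a1 _ b1 with h | ⟨h1, h2⟩ | ⟨h1, h2, h3⟩
  · exact h
  · exfalso
    rw [a2, b2, code_and E.inj E.lt, hkj] at h2
    refine h2 ((code_zero E.inj E.lt).2 (Set.disjoint_iff_inter_eq_empty.1 (S.nb _ ?_)))
    rcases h1 with h1 | h1
    · exact Or.inl (a3.1 h1)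
    · rw [hkj] at b3
      exact Or.inr (b3.1 h1)
  · exfalso
    rw [a2, b2, code_and E.inj E.lt, hkj] at h3
    have h4 := twoB_code E.inj E.lt h3
    have h5 := S.nb1 (Fin.ofNat 6 k)
    omega

theorem three_three (K : Fin 6) : K + 3 + 3 = K := by
  revert K; decide

theorem opT_of (O : OkS D) (E : Enc D f M) (S : Sys M A Λ) (Hm : Md D f Λ) {k j : ℕ}
    (hkj : (Fin.ofNat 6 j : Fin 6) = Fin.ofNat 6 k + 3) :
    rel D.opT (td D f Λ k) (td D f Λ j) := by
  obtain ⟨a1, a2, a3⟩ := td_spec O E S Hm k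
  obtain ⟨b1, b2, b3⟩ := td_spec O E S Hm j
  have c3 : D.A ≤ td D f Λ j → (Λ (Fin.ofNat 6 k + 3)).ncard = 3 := fun h => by
    have := card3 O E S Hm h
    rwa [hkj] at this
  have b3' : td D f Λ j < D.A → (Λ (Fin.ofNat 6 k + 3)).ncard = 2 := fun h => by
    have := b3.1 h
    rwa [hkj] at this
  rcases O.opT _ a1 _ b1 with h | ⟨h1, h2, h3⟩ | ⟨h0, h1, h2⟩ | ⟨h1, h2⟩
  · exact h
  · exfalso
    obtain ⟨h, hA⟩ := exists_A S
    have h4 := op_code E ((S.leg h hA).op (Fin.ofNat 6 k))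
    rw [pair_eq S (a3.1 h1) hA, pair_eq S (b3' h2) hA] at h4
    rw [a2, b2, hkj, h4] at h3
    exact absurd h3 (by simp)
  · exfalso
    rw [a2, b2, code_and E.inj E.lt, hkj, code_zero E.inj E.lt] at h2
    rcases h1 with h1 | h1
    · have h3 : D.A ≤ td D f Λ j := by
        by_contra hc
        exact h0 ⟨h1, not_le.1 hc⟩
      have h4 := S.gap (Fin.ofNat 6 k + 3) (c3 h3) (by rw [three_three]; exact a3.1 h1)
      rw [three_three, Set.inter_comm, h2] at h4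
      exact Set.not_nonempty_empty h4
    · have h3 : D.A ≤ td D f Λ k := by
        by_contra hc
        exact h0 ⟨not_le.1 hc, h1⟩
      have h4 := S.gap (Fin.ofNat 6 k) (card3 O E S Hm h3) (b3' h1)
      rw [h2] at h4
      exact Set.not_nonempty_empty h4
  · exfalso
    apply h1
    rw [a2, b2, code_compl E.inj E.lt, hkj]
    rcases h2 with ⟨h2, h3⟩ | ⟨h2, h3⟩
    · rw [a2, code_compl E.inj E.lt] at h3
      rw [Hm.opp _ (card3 O E S Hm h2) h3]
    · rw [b2, code_compl E.inj E.lt, hkj] at h3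
      have h4 := Hm.opp _ (c3 h2) h3
      rw [three_three] at h4
      rw [h4, compl_compl]

theorem tmk_land {tie : List ℕ} {x : ℕ} : ∀ {l : List ℕ}, (∀ q ∈ l, Nat.land x (tie.getD q 0) = 0) →
    Nat.land x (tmk tie l) = 0
  | [], _ => Nat.and_zero x
  | p :: l, h => by
    have h1 := tmk_land (tie := tie) (x := x) (l := l) fun q hq => h q (List.mem_cons_of_mem _ hq)
    have h2 := h p List.mem_cons_self
    have e : Nat.land x (tmk tie (p :: l)) =
        (x &&& (tie.getD p 0)) ||| (x &&& tmk tie l) := Nat.and_or_distrib_left x _ _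
    have h1' : x &&& tmk tie l = 0 := h1
    have h2' : x &&& (tie.getD p 0) = 0 := h2
    rw [e, h1', h2']
    rfl

theorem dup_false {tie : List ℕ} : ∀ {l : List ℕ},
    l.Pairwise (fun p q => Nat.land (tie.getD p 0) (tie.getD q 0) = 0) → dup tie l = false
  | [], _ => rfl
  | p :: l, h => by
    obtain ⟨h1, h2⟩ := List.pairwise_cons.1 h
    show cond (Nat.beq (Nat.land (tie.getD p 0) (tmk tie l)) 0) (dup tie l) true = false
    rw [tmk_land h1, dup_false h2]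
    rfl

theorem tie_land (O : OkS D) (E : Enc D f M) (S : Sys M A Λ) (Hm : Md D f Λ) {k j : ℕ}
    (hkj : (Fin.ofNat 6 k : Fin 6) ≠ Fin.ofNat 6 j) :
    Nat.land (D.tie.getD (td D f Λ k) 0) (D.tie.getD (td D f Λ j) 0) = 0 := by
  obtain ⟨a1, -, -⟩ := td_spec O E S Hm k
  obtain ⟨b1, -, -⟩ := td_spec O E S Hm j
  by_cases he : td D f Λ k = td D f Λ j
  · have h1 := td_inj O E S Hm he
    by_cases h2 : tcode D (code f (Λ (Fin.ofNat 6 k))) = 0
    · have h3 : D.tie.getD (td D f Λ k) 0 = 0 := h2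
      rw [h3]
      exact Nat.zero_and _
    · exact absurd (Hm.one _ _ h2 h1) hkj
  · exact (O.ne _ a1 _ b1 he).2

theorem alt_of (O : OkS D) (E : Enc D f M) (S : Sys M A Λ) (Hm : Md D f Λ) :
    alt D [td D f Λ 5, td D f Λ 4, td D f Λ 3, td D f Λ 2, td D f Λ 1, td D f Λ 0] = false := by
  by_contra hcon
  rw [Bool.not_eq_false] at hcon
  have key : ∀ {a b : Bool}, cond a b false = true → a = true ∧ b = true := by
    intro a b h
    cases a <;> cases b <;> simp_all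
  obtain ⟨h1, hcon⟩ := key hcon
  obtain ⟨h2, hcon⟩ := key hcon
  obtain ⟨h3, hcon⟩ := key hcon
  obtain ⟨h4, hcon⟩ := key hcon
  obtain ⟨h5, hcon⟩ := key hcon
  obtain ⟨h6, hcon⟩ := key hcon
  have e1 := td_inj O E S Hm (Nat.eq_of_beq_eq_true h1)
  have e2 := td_inj O E S Hm (Nat.eq_of_beq_eq_true h2)
  have e3 := td_inj O E S Hm (Nat.eq_of_beq_eq_true h3)
  have e4 := td_inj O E S Hm (Nat.eq_of_beq_eq_true h4)
  have e5 := card3 O E S Hm (Nat.le_of_ble_eq_true h5)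
  have e6 := card3 O E S Hm (Nat.le_of_ble_eq_true h6)
  obtain ⟨-, a2, -⟩ := td_spec O E S Hm 0
  obtain ⟨-, b2, -⟩ := td_spec O E S Hm 1
  rw [a2, b2, code_and E.inj E.lt] at hcon
  have e7 : (Λ (Fin.ofNat 6 0) ∩ Λ (Fin.ofNat 6 1)).ncard = 1 := by
    unfold sing at hcon
    have h7 : ∃ j < 6, code f (Λ (Fin.ofNat 6 0) ∩ Λ (Fin.ofNat 6 1)) = 2 ^ j := by
      obtain ⟨s, hs, hs2⟩ := List.any_eq_true.1 hcon
      have hs2 := Nat.eq_of_beq_eq_true hs2
      rw [hs2]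
      have : ∀ s ∈ [1, 2, 4, 8, 16, 32], ∃ j < 6, s = 2 ^ j := by decide
      exact this s hs
    obtain ⟨j, hj, h8⟩ := h7
    obtain ⟨a, rfl⟩ := ex_f E.inj E.lt hj
    rw [← code_single E.inj E.lt] at h8
    rw [code_inj E.inj E.lt h8, Set.ncard_singleton]
  exact S.alt ⟨e4.symm, e3.symm, e2.symm, e1.symm, e5, e6, e7⟩

/-- **The encoded palettes are allowed.** -/
theorem enc_tuple (ok : okD D = true) (E : Enc D f M) (S : Sys M A Λ) (Hm : Md D f Λ) :
    Alw D (td D f Λ) := by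
  have O := okS ok
  refine ⟨⟨fun k _ => (td_spec O E S Hm k).1, nbT_of O E S Hm rfl, nbT_of O E S Hm rfl,
    nbT_of O E S Hm rfl, nbT_of O E S Hm rfl, nbT_of O E S Hm rfl, nbT_of O E S Hm rfl,
    opT_of O E S Hm rfl, opT_of O E S Hm rfl, opT_of O E S Hm rfl⟩, alt_of O E S Hm, ?_, ?_⟩
  · apply dup_false
    simp only [List.pairwise_cons, List.mem_cons, List.not_mem_nil, or_false, forall_eq_or_imp,
      forall_eq, false_imp_iff, implies_true, List.Pairwise.nil, and_true]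
    refine ⟨⟨?_, ?_, ?_, ?_, ?_⟩, ⟨?_, ?_, ?_, ?_⟩, ⟨?_, ?_, ?_⟩, ⟨?_, ?_⟩, ?_⟩ <;>
      exact tie_land O E S Hm (by decide)
  · intro k _ c hc hb
    rw [bt_eq, (td_spec O E S Hm k).2.1] at hb
    obtain ⟨i, rfl⟩ := ex_f E.inj E.lt hc
    obtain ⟨h, hA, hi⟩ := S.span _ i ((tb E.inj E.lt _ i).1 hb)
    refine ⟨wd D f h, enc_word ok E (S.leg h hA), enc_blw ok E S Hm hA, ?_⟩
    rw [bt_eq, (wd_spec O E (S.leg h hA) k).2]
    exact (tb E.inj E.lt _ i).2 hi

theorem tmk_bit {tie : List ℕ} {c : ℕ} : ∀ {l : List ℕ}, (tmk tie l).testBit c = true ↔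
    ∃ q ∈ l, (tie.getD q 0).testBit c = true
  | [] => by simp [tmk]
  | p :: l => by
    have e : tmk tie (p :: l) = (tie.getD p 0) ||| tmk tie l := rfl
    rw [e, Nat.testBit_or, Bool.or_eq_true, tmk_bit (l := l)]
    simp

/-- the ties of the encoded palettes -/
theorem ties_bit (c : ℕ) : (ties D (td D f Λ)).testBit c = true ↔
    ∃ k, (tcode D (code f (Λ k))).testBit c = true := by
  unfold ties
  rw [tmk_bit]
  constructor
  · rintro ⟨q, hq, hb⟩
    simp only [List.mem_cons, List.not_mem_nil, or_false] at hq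
    rcases hq with rfl | rfl | rfl | rfl | rfl | rfl
    · exact ⟨Fin.ofNat 6 5, hb⟩
    · exact ⟨Fin.ofNat 6 4, hb⟩
    · exact ⟨Fin.ofNat 6 3, hb⟩
    · exact ⟨Fin.ofNat 6 2, hb⟩
    · exact ⟨Fin.ofNat 6 1, hb⟩
    · exact ⟨Fin.ofNat 6 0, hb⟩
  · rintro ⟨k, hb⟩
    refine ⟨td D f Λ k.val, ?_, ?_⟩
    · fin_cases k <;> simp
    · have e : (Fin.ofNat 6 k.val : Fin 6) = k := by
        apply Fin.ext
        exact Nat.mod_eq_of_lt k.isLt
      show (tcode D (code f (Λ (Fin.ofNat 6 k.val)))).testBit c = true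
      rw [e]
      exact hb

end Vale.Agent.P032.Words6.H378
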